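import Crest.Agent.Helper65.Switch.Classes
import Crest.Agent.Helper80.S0453.JohnsonPoincare

/-!
# S0453, WP-B (second half): the Johnson bound `(T2-Om)` on the realizations

`∑_{pairs U} ∑_{G ∈ Ω} f G · R_U f G ≤ switchEnergy d f`, derived from

* an abstract Johnson Poincaré inequality (hypothesis `JohnsonPoincare`, constant `1/4` in the
  ordered-edge form; helper80's `johnson_poincare`), and
* the pair-class interface `PairClassModel d U`: every `~_U`-class is the image of some
  `D.powersetCard s` under an injective map sending Johnson edges to switches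
  (helper65's `toSet`/`ofSet` bijection).

Everything here is plain double counting.  (helper16)
-/

set_option autoImplicit false

namespace Crest.Agent.Helper16.S0453

open Finset Crest.SwitchChain Crest.Agent.Helper65.Switch

/-! ### abstract: summing over a set = summing class averages -/

/-- A sum over `Ω` equals the sum over `x0 ∈ Ω` of the average over the class of `x0`
(classes = level sets of a key `k`). -/
lemma sum_eq_sum_class_avg {α β : Type*} [DecidableEq β] (Ω : Finset α) (k : α → β) (F : α → ℝ) :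
    ∑ x ∈ Ω, F x = ∑ x0 ∈ Ω, (∑ x ∈ Ω.filter (fun y => k y = k x0), F x) /
      ((Ω.filter (fun y => k y = k x0)).card : ℝ) := by
  classical
  have h1 : ∀ x0 ∈ Ω, (∑ x ∈ Ω.filter (fun y => k y = k x0), F x) /
        ((Ω.filter (fun y => k y = k x0)).card : ℝ)
      = ∑ x ∈ Ω, if k x = k x0 then F x / ((Ω.filter (fun y => k y = k x)).card : ℝ) else 0 := by
    intro x0 _
    rw [Finset.sum_div, Finset.sum_filter]
    refine Finset.sum_congr rfl fun x _ => ?_
    split_ifs with h
    · rw [h]
    · rfl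
  rw [Finset.sum_congr rfl h1, Finset.sum_comm]
  refine Finset.sum_congr rfl fun x hx => ?_
  rw [← Finset.sum_filter, Finset.sum_const, nsmul_eq_mul]
  have hset : Ω.filter (fun x0 => k x = k x0) = Ω.filter (fun y => k y = k x) := by
    ext y; simp [eq_comm]
  rw [hset]
  have hne : (Ω.filter (fun y => k y = k x)).Nonempty :=
    ⟨x, Finset.mem_filter.2 ⟨hx, rfl⟩⟩
  have hpos : (0 : ℝ) < ((Ω.filter (fun y => k y = k x)).card : ℝ) := by
    exact_mod_cast Finset.card_pos.2 hne
  field_simp

/-- Two exchanges of the same set coincide only if they are the same exchange. -/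
lemma exchange_inj {α : Type*} [DecidableEq α] {A : Finset α} {c c' w w' : α}
    (hc : c ∈ A) (hw : w ∉ A)
    (h : insert w (A.erase c) = insert w' (A.erase c')) : c = c' ∧ w = w' := by
  have h1 : w ∈ insert w' (A.erase c') := h ▸ Finset.mem_insert_self w _
  have hww : w = w' := by
    rcases Finset.mem_insert.1 h1 with h2 | h2
    · exact h2
    · exact absurd (Finset.mem_of_mem_erase h2) hw
  have h3 : c ∉ insert w (A.erase c) := by
    intro h4
    rcases Finset.mem_insert.1 h4 with h5 | h5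
    · exact hw (h5 ▸ hc)
    · exact absurd rfl (Finset.ne_of_mem_erase h5)
  rw [h] at h3
  have h6 : c ∉ A.erase c' := fun h7 => h3 (Finset.mem_insert_of_mem h7)
  have hcc : c = c' := by
    by_contra hne
    exact h6 (Finset.mem_erase.2 ⟨hne, hc⟩)
  exact ⟨hcc, hww⟩

lemma exchange_mem_powersetCard {α : Type*} [DecidableEq α] {D A : Finset α} {s : ℕ} {c w : α}
    (hA : A ∈ D.powersetCard s) (hc : c ∈ A) (hw : w ∈ D \ A) :
    insert w (A.erase c) ∈ D.powersetCard s := by
  rw [Finset.mem_powersetCard] at hA ⊢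
  rw [Finset.mem_sdiff] at hw
  refine ⟨?_, ?_⟩
  · intro x hx
    rcases Finset.mem_insert.1 hx with rfl | hx
    · exact hw.1
    · exact hA.1 (Finset.mem_of_mem_erase hx)
  · rw [Finset.card_insert_of_notMem (fun h => hw.2 (Finset.mem_of_mem_erase h)),
      Finset.card_erase_of_mem hc, hA.2]
    have : 0 < A.card := Finset.card_pos.2 ⟨c, hc⟩
    omega

/-! ### the two interfaces -/

variable {n : ℕ}

/-- Abstract Johnson Poincaré inequality on the `s`-subsets of `D`, ordered-edge form, constant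
`1/4` (the shape of helper80's `johnson_poincare`). -/
def JohnsonPoincare (n : ℕ) : Prop :=
  ∀ (D : Finset (Fin n)) (s : ℕ) (φ : Finset (Fin n) → ℝ),
    ((D.powersetCard s).card : ℝ) * ∑ X ∈ D.powersetCard s, φ X ^ 2 -
        (∑ X ∈ D.powersetCard s, φ X) ^ 2 ≤
      (1 / 4) * (D.powersetCard s).card *
        ∑ X ∈ D.powersetCard s, ∑ c ∈ X, ∑ w ∈ D \ X, (φ X - φ (insert w (X.erase c))) ^ 2

/-- The pair-class interface: every `~_U`-class inside the realizations is the injective image of
some `D.powersetCard s`, and exchanges are switches. -/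
def PairClassModel (d : Fin n → ℕ) (U : Finset (Fin n)) : Prop :=
  ∀ G ∈ realizations d, ∃ (D : Finset (Fin n)) (s : ℕ)
    (ofSet : Finset (Fin n) → Finset (Edge n)),
    (∀ A ∈ D.powersetCard s, ofSet A ∈ cls d U G) ∧
    (∀ G' ∈ cls d U G, ∃ A ∈ D.powersetCard s, ofSet A = G') ∧
    (∀ A ∈ D.powersetCard s, ∀ A' ∈ D.powersetCard s, ofSet A = ofSet A' → A = A') ∧
    (∀ A ∈ D.powersetCard s, ∀ u ∈ A, ∀ w ∈ D \ A,
      IsSwitch (ofSet A) (ofSet (insert w (A.erase u))))

open Classical in
/-- The switch energy seen from `G` inside its `~_U`-class. -/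
noncomputable def clsEnergy (d : Fin n → ℕ) (U : Finset (Fin n)) (f : Finset (Edge n) → ℝ)
    (G : Finset (Edge n)) : ℝ :=
  ∑ G' ∈ (cls d U G).filter (fun G' => IsSwitch G G'), (f G - f G') ^ 2

lemma clsEnergy_nonneg (d : Fin n → ℕ) (U : Finset (Fin n)) (f : Finset (Edge n) → ℝ)
    (G : Finset (Edge n)) : 0 ≤ clsEnergy d U f G :=
  Finset.sum_nonneg fun _ _ => sq_nonneg _

open Classical in
lemma clsEnergy_congr {d : Fin n → ℕ} {U : Finset (Fin n)} (f : Finset (Edge n) → ℝ)
    {G G0 : Finset (Edge n)} (h : G ∈ cls d U G0) :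
    clsEnergy d U f G =
      ∑ G' ∈ (cls d U G0).filter (fun G' => IsSwitch G G'), (f G - f G') ^ 2 := by
  unfold clsEnergy
  rw [cls_eq_of_mem h]

/-! ### Poincaré inequality on one class -/

/-- Poincaré inequality on one `~_U`-class, from the abstract Johnson inequality. -/
lemma class_poincare (hJP : JohnsonPoincare n) {d : Fin n → ℕ} {U : Finset (Fin n)}
    (hB : PairClassModel d U) (f : Finset (Edge n) → ℝ) {G : Finset (Edge n)}
    (hG : G ∈ realizations d) :
    ((cls d U G).card : ℝ) * ∑ G' ∈ cls d U G, f G' ^ 2 - (∑ G' ∈ cls d U G, f G') ^ 2 ≤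
      (1 / 4) * (cls d U G).card * ∑ G' ∈ cls d U G, clsEnergy d U f G' := by
  classical
  obtain ⟨D, s, ofSet, h1, h2, h3, h4⟩ := hB G hG
  have hinj : Set.InjOn ofSet (D.powersetCard s : Set (Finset (Fin n))) := by
    intro A hA A' hA' h
    exact h3 A (Finset.mem_coe.1 hA) A' (Finset.mem_coe.1 hA') h
  have hsurj : Set.SurjOn ofSet (D.powersetCard s : Set (Finset (Fin n)))
      (cls d U G : Set (Finset (Edge n))) := by
    intro G' hG'
    obtain ⟨A, hA, rfl⟩ := h2 G' (Finset.mem_coe.1 hG')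
    exact ⟨A, Finset.mem_coe.2 hA, rfl⟩
  have hsum : ∀ F : Finset (Edge n) → ℝ,
      ∑ A ∈ D.powersetCard s, F (ofSet A) = ∑ G' ∈ cls d U G, F G' := fun F =>
    Finset.sum_nbij ofSet h1 hinj hsurj (fun _ _ => rfl)
  have hcard : (D.powersetCard s).card = (cls d U G).card :=
    Finset.card_nbij ofSet h1 hinj hsurj
  have key := hJP D s (fun A => f (ofSet A))
  rw [hsum (fun G' => f G' ^ 2), hsum f, hcard] at key
  refine le_trans key ?_
  have hK : (0 : ℝ) ≤ (1 / 4) * ((cls d U G).card : ℝ) := by positivity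
  refine mul_le_mul_of_nonneg_left ?_ hK
  rw [← hsum (fun G' => clsEnergy d U f G')]
  refine Finset.sum_le_sum fun A hA => ?_
  rw [clsEnergy_congr f (h1 A hA)]
  -- the exchanges of `A` inject into the switch neighbours of `ofSet A` inside the class
  rw [← Finset.sum_product' (s := A) (t := D \ A)
    (f := fun c w => (f (ofSet A) - f (ofSet (insert w (A.erase c)))) ^ 2)]
  have hφinj : Set.InjOn (fun p : Fin n × Fin n => ofSet (insert p.2 (A.erase p.1)))
      ((A ×ˢ (D \ A) : Finset (Fin n × Fin n)) : Set (Fin n × Fin n)) := by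
    rintro ⟨c, w⟩ hp ⟨c', w'⟩ hp' h
    rw [Finset.mem_coe, Finset.mem_product] at hp hp'
    have e := h3 _ (exchange_mem_powersetCard hA hp.1 hp.2) _
      (exchange_mem_powersetCard hA hp'.1 hp'.2) h
    obtain ⟨e1, e2⟩ := exchange_inj hp.1 (Finset.mem_sdiff.1 hp.2).2 e
    exact Prod.ext e1 e2
  rw [← Finset.sum_image (s := A ×ˢ (D \ A))
    (g := fun p : Fin n × Fin n => ofSet (insert p.2 (A.erase p.1)))
    (f := fun G'' => (f (ofSet A) - f G'') ^ 2) hφinj]
  refine Finset.sum_le_sum_of_subset_of_nonneg ?_ (fun _ _ _ => sq_nonneg _)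
  intro G'' hG''
  obtain ⟨⟨c, w⟩, hp, rfl⟩ := Finset.mem_image.1 hG''
  rw [Finset.mem_product] at hp
  exact Finset.mem_filter.2 ⟨h1 _ (exchange_mem_powersetCard hA hp.1 hp.2), h4 A hA c hp.1 w hp.2⟩

/-! ### one pair -/

/-- `⟨f, R_U f⟩ ≤ (1/4) ·` (ordered switch energy inside the `~_U`-classes). -/
lemma pair_energy (hJP : JohnsonPoincare n) {d : Fin n → ℕ} {U : Finset (Fin n)}
    (hB : PairClassModel d U) (f : Finset (Edge n) → ℝ) :
    ∑ G ∈ realizations d, f G * Rop d U f G ≤
      (1 / 4) * ∑ G ∈ realizations d, clsEnergy d U f G := by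
  classical
  rw [Finset.mul_sum, sum_eq_sum_class_avg (realizations d) (offU U) (fun G => f G * Rop d U f G),
    sum_eq_sum_class_avg (realizations d) (offU U) (fun G => 1 / 4 * clsEnergy d U f G)]
  refine Finset.sum_le_sum fun G0 hG0 => ?_
  change (∑ G ∈ cls d U G0, f G * Rop d U f G) / ((cls d U G0).card : ℝ) ≤
    (∑ G ∈ cls d U G0, 1 / 4 * clsEnergy d U f G) / ((cls d U G0).card : ℝ)
  have hpos : (0 : ℝ) < ((cls d U G0).card : ℝ) := by
    exact_mod_cast Finset.card_pos.2 ⟨G0, mem_cls_self hG0⟩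
  have hL : ∑ G ∈ cls d U G0, f G * Rop d U f G =
      ∑ G ∈ cls d U G0, f G ^ 2 - (∑ G ∈ cls d U G0, f G) ^ 2 / ((cls d U G0).card : ℝ) := by
    have : ∀ G ∈ cls d U G0, f G * Rop d U f G =
        f G ^ 2 - f G * ((∑ G' ∈ cls d U G0, f G') / ((cls d U G0).card : ℝ)) := by
      intro G hG
      rw [Rop_def, Qavg_eq_of_mem f hG, Qavg_def]
      ring
    rw [Finset.sum_congr rfl this, Finset.sum_sub_distrib, ← Finset.sum_mul]
    ring
  have hP := class_poincare hJP hB f hG0
  rw [hL, ← Finset.mul_sum]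
  rw [div_le_div_iff_of_pos_right hpos]
  have : (∑ G ∈ cls d U G0, f G ^ 2 - (∑ G ∈ cls d U G0, f G) ^ 2 / ((cls d U G0).card : ℝ)) *
      ((cls d U G0).card : ℝ) = ((cls d U G0).card : ℝ) * ∑ G' ∈ cls d U G0, f G' ^ 2 -
        (∑ G' ∈ cls d U G0, f G') ^ 2 := by
    field_simp
  nlinarith [hP, this]

/-! ### all pairs: `(T2-Om)` -/

/-- **(T2-Om)**, sharp form: `∑_{pairs U} ⟨f, R_U f⟩ ≤ (1/2) · switchEnergy`. -/
theorem t2Om_half (hJP : JohnsonPoincare n) {d : Fin n → ℕ}
    (hB : ∀ U ∈ (univ : Finset (Fin n)).powersetCard 2, PairClassModel d U)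
    (f : Finset (Edge n) → ℝ) :
    ∑ U ∈ (univ : Finset (Fin n)).powersetCard 2, ∑ G ∈ realizations d, f G * Rop d U f G ≤
      (1 / 2) * switchEnergy d f := by
  classical
  have step1 : ∑ U ∈ (univ : Finset (Fin n)).powersetCard 2,
      ∑ G ∈ realizations d, f G * Rop d U f G ≤
      ∑ U ∈ (univ : Finset (Fin n)).powersetCard 2,
        (1 / 4) * ∑ G ∈ realizations d, clsEnergy d U f G :=
    Finset.sum_le_sum fun U hU => pair_energy hJP (hB U hU) f
  refine le_trans step1 ?_
  rw [← Finset.mul_sum, Finset.sum_comm, switchEnergy_def]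
  have step2 : ∀ G ∈ realizations d,
      ∑ U ∈ (univ : Finset (Fin n)).powersetCard 2, clsEnergy d U f G ≤
        2 * ∑ G' ∈ (realizations d).filter (fun G' => IsSwitch G G'), (f G - f G') ^ 2 := by
    intro G _
    have e1 : ∀ U ∈ (univ : Finset (Fin n)).powersetCard 2, clsEnergy d U f G =
        ∑ G' ∈ (realizations d).filter (fun G' => IsSwitch G G'),
          if offU U G' = offU U G then (f G - f G') ^ 2 else 0 := by
      intro U _
      unfold clsEnergy
      rw [← Finset.sum_filter]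
      refine Finset.sum_congr ?_ fun _ _ => rfl
      ext G'
      simp only [Finset.mem_filter, mem_cls]
      tauto
    rw [Finset.sum_congr rfl e1, Finset.sum_comm, Finset.mul_sum]
    refine Finset.sum_le_sum fun G' hG' => ?_
    have hsw : IsSwitch G G' := (Finset.mem_filter.1 hG').2
    rw [← Finset.sum_filter, Finset.sum_const, nsmul_eq_mul]
    have hc : ((((univ : Finset (Fin n)).powersetCard 2).filter
        (fun U => offU U G' = offU U G)).card : ℝ) ≤ 2 := by
      exact_mod_cast switch_diagonals hsw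
    exact mul_le_mul_of_nonneg_right hc (sq_nonneg _)
  have step3 := Finset.sum_le_sum step2
  rw [← Finset.mul_sum] at step3
  linarith

/-- **(T2-Om)**: `∑_{pairs U} ∑_{G ∈ Ω} f G · R_U f G ≤ switchEnergy d f`. -/
theorem t2Om (hJP : JohnsonPoincare n) {d : Fin n → ℕ}
    (hB : ∀ U ∈ (univ : Finset (Fin n)).powersetCard 2, PairClassModel d U)
    (f : Finset (Edge n) → ℝ) :
    ∑ U ∈ (univ : Finset (Fin n)).powersetCard 2, ∑ G ∈ realizations d, f G * Rop d U f G ≤
      switchEnergy d f := by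
  have h1 := t2Om_half hJP hB f
  have h2 := switchEnergy_nonneg d f
  linarith

/-- The abstract Johnson Poincaré inequality holds (helper80). -/
theorem johnsonPoincare (n : ℕ) : JohnsonPoincare n := fun D s φ =>
  Crest.Agent.Helper80.S0453.johnson_poincare D s φ

/-- **(T2-Om)** from the pair-class interface alone: `∑_{pairs U} ⟨f, R_U f⟩ ≤ (1/2) switchEnergy`. -/
theorem t2Om_half_of_model {d : Fin n → ℕ}
    (hB : ∀ U ∈ (univ : Finset (Fin n)).powersetCard 2, PairClassModel d U)
    (f : Finset (Edge n) → ℝ) :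
    ∑ U ∈ (univ : Finset (Fin n)).powersetCard 2, ∑ G ∈ realizations d, f G * Rop d U f G ≤
      (1 / 2) * switchEnergy d f :=
  t2Om_half (johnsonPoincare n) hB f

/-- **(T2-Om)** from the pair-class interface alone: `∑_{pairs U} ⟨f, R_U f⟩ ≤ switchEnergy`. -/
theorem t2Om_of_model {d : Fin n → ℕ}
    (hB : ∀ U ∈ (univ : Finset (Fin n)).powersetCard 2, PairClassModel d U)
    (f : Finset (Edge n) → ℝ) :
    ∑ U ∈ (univ : Finset (Fin n)).powersetCard 2, ∑ G ∈ realizations d, f G * Rop d U f G ≤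
      switchEnergy d f :=
  t2Om (johnsonPoincare n) hB f

end Crest.Agent.Helper16.S0453
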