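import Crest.Agent.Helper16.S0453.T2Om
import Crest.Agent.Helper65.Switch.PairClass

/-!
# S0453: `(T2-Om)` without hypotheses

`∑_{pairs U} ∑_{G ∈ Ω} f G · R_U f G ≤ switchEnergy d f` (even `≤ (1/2) switchEnergy d f`), by
plugging helper65's pair-class bijection (`PairClass.lean`: `freeSet`, `toSet`, `ofSet`) into the
interface `PairClassModel` of `T2Om.lean`.  (helper16)
-/

set_option autoImplicit false

namespace Crest.Agent.Helper16.S0453

open Finset Crest.SwitchChain Crest.Agent.Helper65.Switch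

variable {n : ℕ}

/-- Every class of a pair `{a, b}` is a Johnson scheme whose exchanges are switches
(helper65's bijection). -/
theorem pairClassModel_pair (d : Fin n → ℕ) {a b : Fin n} (hab : a ≠ b) :
    PairClassModel d {a, b} := by
  intro G0 hG0
  refine ⟨freeSet G0 a b, (toSet G0 a b G0).card, ofSet G0 a b, ?_, ?_, ?_, ?_⟩
  · intro A hA
    rw [Finset.mem_powersetCard] at hA
    exact ofSet_mem_cls hG0 hab hA.1 hA.2
  · intro G' hG'
    exact ⟨toSet G0 a b G', toSet_mem_powersetCard hG0 hab hG', eq_ofSet_of_mem_cls hG0 hab hG'⟩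
  · intro A hA A' hA' h
    rw [Finset.mem_powersetCard] at hA hA'
    rw [← toSet_ofSet (G0 := G0) hab hA.1, ← toSet_ofSet (G0 := G0) hab hA'.1, h]
  · intro A hA u hu w hw
    rw [Finset.mem_powersetCard] at hA
    rw [Finset.mem_sdiff] at hw
    exact isSwitch_ofSet_exchange hab hA.1 hu hw.1 hw.2

/-- The pair-class interface holds for every 2-set of vertices. -/
theorem pairClassModel (d : Fin n → ℕ) (U : Finset (Fin n))
    (hU : U ∈ (univ : Finset (Fin n)).powersetCard 2) : PairClassModel d U := by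
  obtain ⟨a, b, hab, rfl⟩ := Finset.card_eq_two.1 (Finset.mem_powersetCard.1 hU).2
  exact pairClassModel_pair d hab

/-- **(T2-Om)**, sharp accounting: `∑_{pairs U} ⟨f, R_U f⟩ ≤ (1/2) · switchEnergy d f`. -/
theorem t2Om_half_final (d : Fin n → ℕ) (f : Finset (Edge n) → ℝ) :
    ∑ U ∈ (univ : Finset (Fin n)).powersetCard 2, ∑ G ∈ realizations d, f G * Rop d U f G ≤
      (1 / 2) * switchEnergy d f :=
  t2Om_half_of_model (pairClassModel d) f

/-- **(T2-Om)**: `∑_{pairs U} ∑_{G ∈ Ω} f G · R_U f G ≤ switchEnergy d f`. -/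
theorem t2Om_final (d : Fin n → ℕ) (f : Finset (Edge n) → ℝ) :
    ∑ U ∈ (univ : Finset (Fin n)).powersetCard 2, ∑ G ∈ realizations d, f G * Rop d U f G ≤
      switchEnergy d f :=
  t2Om_of_model (pairClassModel d) f

end Crest.Agent.Helper16.S0453
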